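/-
Row 211 (S0326), sub-package Q2: uniform C¹ linearisation near a compact set and the
compactness constants used by the sheared-lattice covering argument.  Imports Mathlib only.
-/
import Mathlib

set_option autoImplicit false
set_option linter.unusedSectionVars false

namespace Crest.Agent.Helper71

open Metric Set

section general

variable {E F : Type*} [NormedAddCommGroup E] [NormedSpace ℝ E] [ProperSpace E]
  [NormedAddCommGroup F] [NormedSpace ℝ F]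

/-- (L1) a closed thickening of a compact set stays inside an open superset. -/
theorem exists_thickening_subset {D U : Set E} (hD : IsCompact D) (hU : IsOpen U) (hDU : D ⊆ U) :
    ∃ r₀ : ℝ, 0 < r₀ ∧ cthickening r₀ D ⊆ U :=
  hD.exists_cthickening_subset_open hU hDU

/-- closed balls of radius `≤ r` around points of `D` lie in the `r`-thickening. -/
theorem closedBall_subset_cthickening_of_mem {D : Set E} {p : E} (hp : p ∈ D) {δ r : ℝ}
    (hδr : δ ≤ r) : closedBall p δ ⊆ cthickening r D :=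
  (closedBall_subset_cthickening hp δ).trans (cthickening_mono hδr D)

/-- (L2) uniform strict linearisation of a `C¹` map near a compact set. -/
theorem uniform_strict_linearisation {D U : Set E} (hD : IsCompact D) (hU : IsOpen U)
    (hDU : D ⊆ U) {V : E → F} (hV : ContDiffOn ℝ 1 V U) {ε : ℝ} (hε : 0 < ε) :
    ∃ δ : ℝ, 0 < δ ∧ ∀ p ∈ D, ∀ z z' : E, dist z p ≤ δ → dist z' p ≤ δ →
      z ∈ U ∧ z' ∈ U ∧ ‖V z' - V z - fderiv ℝ V p (z' - z)‖ ≤ ε * ‖z' - z‖ := by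
  obtain ⟨r₀, hr₀, hr₀U⟩ := exists_thickening_subset hD hU hDU
  have hK : IsCompact (cthickening r₀ D) := hD.cthickening
  have hcont : ContinuousOn (fderiv ℝ V) U := hV.continuousOn_fderiv_of_isOpen hU le_rfl
  have huc : UniformContinuousOn (fderiv ℝ V) (cthickening r₀ D) :=
    hK.uniformContinuousOn_of_continuous (hcont.mono hr₀U)
  rw [Metric.uniformContinuousOn_iff_le] at huc
  obtain ⟨δ₁, hδ₁, hδ₁'⟩ := huc ε hε
  refine ⟨min r₀ δ₁, lt_min hr₀ hδ₁, ?_⟩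
  intro p hp z z' hz hz'
  have hball : closedBall p (min r₀ δ₁) ⊆ cthickening r₀ D :=
    closedBall_subset_cthickening_of_mem hp (min_le_left _ _)
  have hzB : z ∈ closedBall p (min r₀ δ₁) := mem_closedBall.2 hz
  have hz'B : z' ∈ closedBall p (min r₀ δ₁) := mem_closedBall.2 hz'
  have hpK : p ∈ cthickening r₀ D := hball (mem_closedBall_self (le_min hr₀.le hδ₁.le))
  refine ⟨hr₀U (hball hzB), hr₀U (hball hz'B), ?_⟩
  have hderiv : ∀ x ∈ closedBall p (min r₀ δ₁),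
      HasFDerivWithinAt (fun y => V y - fderiv ℝ V p y) (fderiv ℝ V x - fderiv ℝ V p)
        (closedBall p (min r₀ δ₁)) x := by
    intro x hx
    have hxU : x ∈ U := hr₀U (hball hx)
    have hd : DifferentiableAt ℝ V x :=
      (hV.differentiableOn one_ne_zero).differentiableAt (hU.mem_nhds hxU)
    exact (hd.hasFDerivAt.sub (fderiv ℝ V p).hasFDerivAt).hasFDerivWithinAt
  have hbound : ∀ x ∈ closedBall p (min r₀ δ₁), ‖fderiv ℝ V x - fderiv ℝ V p‖ ≤ ε := by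
    intro x hx
    have h1 : dist x p ≤ δ₁ := (mem_closedBall.1 hx).trans (min_le_right _ _)
    have := hδ₁' x (hball hx) p hpK h1
    rwa [dist_eq_norm] at this
  have := (convex_closedBall p (min r₀ δ₁)).norm_image_sub_le_of_norm_hasFDerivWithin_le
    hderiv hbound hzB hz'B
  simpa [map_sub, sub_sub_sub_comm] using this

/-- (L3) the derivative is uniformly continuous on the compact set. -/
theorem fderiv_uniformContinuousOn {D U : Set E} (hD : IsCompact D) (hU : IsOpen U)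
    (hDU : D ⊆ U) {V : E → F} (hV : ContDiffOn ℝ 1 V U) {ε : ℝ} (hε : 0 < ε) :
    ∃ δ : ℝ, 0 < δ ∧ ∀ p ∈ D, ∀ p' ∈ D, dist p p' ≤ δ →
      ‖fderiv ℝ V p - fderiv ℝ V p'‖ ≤ ε := by
  have hcont : ContinuousOn (fderiv ℝ V) U := hV.continuousOn_fderiv_of_isOpen hU le_rfl
  have huc : UniformContinuousOn (fderiv ℝ V) D :=
    hD.uniformContinuousOn_of_continuous (hcont.mono hDU)
  rw [Metric.uniformContinuousOn_iff_le] at huc
  obtain ⟨δ, hδ, h⟩ := huc ε hε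
  refine ⟨δ, hδ, fun p hp p' hp' hpp' => ?_⟩
  have := h p hp p' hp' hpp'
  rwa [dist_eq_norm] at this

/-- (L4a) the derivative is bounded on the compact set. -/
theorem fderiv_bounded {D U : Set E} (hD : IsCompact D) (hU : IsOpen U)
    (hDU : D ⊆ U) {V : E → F} (hV : ContDiffOn ℝ 1 V U) :
    ∃ B : ℝ, 0 ≤ B ∧ ∀ p ∈ D, ‖fderiv ℝ V p‖ ≤ B := by
  have hcont : ContinuousOn (fderiv ℝ V) U := hV.continuousOn_fderiv_of_isOpen hU le_rfl
  obtain ⟨C, hC⟩ := hD.exists_bound_of_continuousOn (hcont.mono hDU)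
  exact ⟨max C 0, le_max_right _ _, fun p hp => (hC p hp).trans (le_max_left _ _)⟩

/-- (L4b) `V` is uniformly Lipschitz near the compact set. -/
theorem lipschitz_near {D U : Set E} (hD : IsCompact D) (hU : IsOpen U)
    (hDU : D ⊆ U) {V : E → F} (hV : ContDiffOn ℝ 1 V U) :
    ∃ B δ : ℝ, 0 ≤ B ∧ 0 < δ ∧ ∀ p ∈ D, ∀ z z' : E, dist z p ≤ δ → dist z' p ≤ δ →
      ‖V z' - V z‖ ≤ B * ‖z' - z‖ := by
  obtain ⟨B, hB0, hB⟩ := fderiv_bounded hD hU hDU hV
  obtain ⟨δ, hδ, h⟩ := uniform_strict_linearisation hD hU hDU hV one_pos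
  refine ⟨B + 1, δ, by positivity, hδ, fun p hp z z' hz hz' => ?_⟩
  obtain ⟨-, -, h3⟩ := h p hp z z' hz hz'
  have h4 : ‖fderiv ℝ V p (z' - z)‖ ≤ B * ‖z' - z‖ :=
    ((fderiv ℝ V p).le_opNorm _).trans (mul_le_mul_of_nonneg_right (hB p hp) (norm_nonneg _))
  calc ‖V z' - V z‖ = ‖(V z' - V z - fderiv ℝ V p (z' - z)) + fderiv ℝ V p (z' - z)‖ := by
        congr 1; abel
    _ ≤ ‖V z' - V z - fderiv ℝ V p (z' - z)‖ + ‖fderiv ℝ V p (z' - z)‖ := norm_add_le _ _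
    _ ≤ 1 * ‖z' - z‖ + B * ‖z' - z‖ := add_le_add h3 h4
    _ = (B + 1) * ‖z' - z‖ := by ring

end general

section det

variable {E : Type*} [NormedAddCommGroup E] [NormedSpace ℝ E] [FiniteDimensional ℝ E]

/-- (L5) a uniform positive lower bound for `det (1 + s • DV(p)) = 1 + s² det DV(p)`
(in the trace-free planar case) on the compact set. -/
theorem det_margin {D U : Set E} (hD : IsCompact D) (hU : IsOpen U)
    (hDU : D ⊆ U) {V : E → E} (hV : ContDiffOn ℝ 1 V U) {L : ℝ} (hL : 0 < L)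
    (hdet : ∀ p ∈ D, -(L ^ 2)⁻¹ < LinearMap.det (fderiv ℝ V p).toLinearMap) :
    ∃ κ : ℝ, 0 < κ ∧ κ ≤ 1 ∧ ∀ p ∈ D, ∀ s : ℝ, |s| ≤ L →
      κ ≤ 1 + s ^ 2 * LinearMap.det (fderiv ℝ V p).toLinearMap := by
  have : ProperSpace E := FiniteDimensional.proper_real E
  rcases D.eq_empty_or_nonempty with rfl | hne
  · exact ⟨1, one_pos, le_rfl, fun p hp => absurd hp (Set.notMem_empty p)⟩
  have hcont : ContinuousOn (fun p => LinearMap.det (fderiv ℝ V p).toLinearMap) D := by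
    have h1 : ContinuousOn (fderiv ℝ V) D :=
      (hV.continuousOn_fderiv_of_isOpen hU le_rfl).mono hDU
    exact (ContinuousLinearMap.continuous_det (𝕜 := ℝ) (E := E)).comp_continuousOn h1
  obtain ⟨p₀, hp₀, hmin⟩ := hD.exists_isMinOn hne hcont
  set d₀ := LinearMap.det (fderiv ℝ V p₀).toLinearMap with hd₀
  have hd₀' : -(L ^ 2)⁻¹ < d₀ := hdet p₀ hp₀
  have hL2 : 0 < L ^ 2 := by positivity
  have h1 : 0 < 1 + L ^ 2 * d₀ := by
    have : L ^ 2 * (-(L ^ 2)⁻¹) < L ^ 2 * d₀ := mul_lt_mul_of_pos_left hd₀' hL2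
    have h2 : L ^ 2 * (-(L ^ 2)⁻¹) = -1 := by field_simp
    linarith
  refine ⟨min 1 (1 + L ^ 2 * d₀), lt_min one_pos h1, min_le_left _ _, ?_⟩
  intro p hp s hs
  have hd : d₀ ≤ LinearMap.det (fderiv ℝ V p).toLinearMap := hmin hp
  set d := LinearMap.det (fderiv ℝ V p).toLinearMap
  have hs2 : s ^ 2 ≤ L ^ 2 := by
    have := abs_nonneg s
    nlinarith [sq_abs s]
  have hs0 : 0 ≤ s ^ 2 := sq_nonneg s
  by_cases hdn : 0 ≤ d
  · calc min 1 (1 + L ^ 2 * d₀) ≤ 1 := min_le_left _ _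
      _ ≤ 1 + s ^ 2 * d := by nlinarith
  · push Not at hdn
    calc min 1 (1 + L ^ 2 * d₀) ≤ 1 + L ^ 2 * d₀ := min_le_right _ _
      _ ≤ 1 + L ^ 2 * d := by nlinarith
      _ ≤ 1 + s ^ 2 * d := by nlinarith

end det

section J

/-- the cost density of S0326/S0329. -/
noncomputable def Jf (h : ℝ) (g : EuclideanSpace ℝ (Fin 2)) : ℝ :=
  1 / Real.sqrt (1 + (g 0) ^ 2 + h ^ 2 * (g 1) ^ 2)

theorem Jf_pos (h : ℝ) (g : EuclideanSpace ℝ (Fin 2)) : 0 < Jf h g := by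
  unfold Jf
  have : 0 < 1 + (g 0) ^ 2 + h ^ 2 * (g 1) ^ 2 := by positivity
  positivity

theorem Jf_le_one (h : ℝ) (g : EuclideanSpace ℝ (Fin 2)) : Jf h g ≤ 1 := by
  unfold Jf
  have h1 : (1 : ℝ) ≤ 1 + (g 0) ^ 2 + h ^ 2 * (g 1) ^ 2 := by nlinarith [sq_nonneg (g 0), sq_nonneg (h * g 1)]
  have h2 : (1 : ℝ) ≤ Real.sqrt (1 + (g 0) ^ 2 + h ^ 2 * (g 1) ^ 2) :=
    Real.one_le_sqrt.2 h1
  rw [div_le_one (by linarith)]
  exact h2

/-- reverse triangle inequality for the weighted norm `√(1 + x² + y²)`. -/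
theorem abs_sqrt_sub_sqrt_le (x y x' y' : ℝ) :
    |Real.sqrt (1 + x ^ 2 + y ^ 2) - Real.sqrt (1 + x' ^ 2 + y' ^ 2)| ≤ |x - x'| + |y - y'| := by
  set A := Real.sqrt (1 + x ^ 2 + y ^ 2) with hA
  set B := Real.sqrt (1 + x' ^ 2 + y' ^ 2) with hB
  have hA0 : 0 ≤ A := Real.sqrt_nonneg _
  have hB0 : 0 ≤ B := Real.sqrt_nonneg _
  have hA2 : A ^ 2 = 1 + x ^ 2 + y ^ 2 := Real.sq_sqrt (by positivity)
  have hB2 : B ^ 2 = 1 + x' ^ 2 + y' ^ 2 := Real.sq_sqrt (by positivity)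
  have hAB : 1 + x * x' + y * y' ≤ A * B := by
    by_contra hcon
    push Not at hcon
    have h0 : 0 ≤ A * B := mul_nonneg hA0 hB0
    have h1 : (A * B) ^ 2 < (1 + x * x' + y * y') ^ 2 := by nlinarith
    have h2 : (A * B) ^ 2 = (1 + x ^ 2 + y ^ 2) * (1 + x' ^ 2 + y' ^ 2) := by
      rw [mul_pow, hA2, hB2]
    nlinarith [sq_nonneg (x - x'), sq_nonneg (y - y'), sq_nonneg (x * y' - x' * y)]
  have hsq : (A - B) ^ 2 ≤ (|x - x'| + |y - y'|) ^ 2 := by
    have e1 : (|x - x'| + |y - y'|) ^ 2 = (x - x') ^ 2 + (y - y') ^ 2 + 2 * (|x - x'| * |y - y'|) := by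
      have := sq_abs (x - x'); have := sq_abs (y - y'); nlinarith
    have e2 : 0 ≤ |x - x'| * |y - y'| := mul_nonneg (abs_nonneg _) (abs_nonneg _)
    nlinarith
  have hnn : 0 ≤ |x - x'| + |y - y'| := add_nonneg (abs_nonneg _) (abs_nonneg _)
  exact abs_le_of_sq_le_sq' hsq hnn |>.1 |> fun h => abs_le.2 ⟨h, (abs_le_of_sq_le_sq' hsq hnn).2⟩

/-- (L6) `Jf h` is `(1 + h)`-Lipschitz. -/
theorem Jf_sub_le {h : ℝ} (hh : 0 < h) (g g' : EuclideanSpace ℝ (Fin 2)) :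
    |Jf h g - Jf h g'| ≤ (1 + h) * ‖g - g'‖ := by
  unfold Jf
  set A := Real.sqrt (1 + (g 0) ^ 2 + h ^ 2 * (g 1) ^ 2) with hA
  set B := Real.sqrt (1 + (g' 0) ^ 2 + h ^ 2 * (g' 1) ^ 2) with hB
  have hA1 : 1 ≤ A :=
    Real.one_le_sqrt.2 (by nlinarith [sq_nonneg (g 0), sq_nonneg (h * g 1)])
  have hB1 : 1 ≤ B :=
    Real.one_le_sqrt.2 (by nlinarith [sq_nonneg (g' 0), sq_nonneg (h * g' 1)])
  have hAB : |A - B| ≤ |g 0 - g' 0| + |h * g 1 - h * g' 1| := by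
    have := abs_sqrt_sub_sqrt_le (g 0) (h * g 1) (g' 0) (h * g' 1)
    simpa [hA, hB, mul_pow] using this
  have hc0 : |g 0 - g' 0| ≤ ‖g - g'‖ := by
    have := PiLp.norm_apply_le (g - g') (0 : Fin 2)
    simpa [Real.norm_eq_abs] using this
  have hc1 : |g 1 - g' 1| ≤ ‖g - g'‖ := by
    have := PiLp.norm_apply_le (g - g') (1 : Fin 2)
    simpa [Real.norm_eq_abs] using this
  have hc1' : |h * g 1 - h * g' 1| ≤ h * ‖g - g'‖ := by
    rw [← mul_sub, abs_mul, abs_of_pos hh]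
    exact mul_le_mul_of_nonneg_left hc1 hh.le
  have hdiff : 1 / A - 1 / B = (B - A) / (A * B) := by
    field_simp
  rw [hdiff, abs_div, abs_sub_comm]
  have hABpos : 1 ≤ A * B := by nlinarith
  rw [abs_of_pos (by linarith : 0 < A * B)]
  calc |A - B| / (A * B) ≤ |A - B| / 1 := by
        apply div_le_div_of_nonneg_left (abs_nonneg _) one_pos hABpos
    _ = |A - B| := div_one _
    _ ≤ |g 0 - g' 0| + |h * g 1 - h * g' 1| := hAB
    _ ≤ ‖g - g'‖ + h * ‖g - g'‖ := add_le_add hc0 hc1'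
    _ = (1 + h) * ‖g - g'‖ := by ring

end J

end Crest.Agent.Helper71
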