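/-
Row 211 (S0326): the hypotheses of the S0326 statement turned into the exact shapes that the
LOCAL / GLOBAL packages consume (helper19 #330, helper33 #334).  Imports Mathlib + Linearise.
-/
import Crest.Agent.Helper71.Ruled.Linearise

set_option autoImplicit false

namespace Crest.Agent.Helper71

open Metric Set

local notation "E2" => EuclideanSpace ℝ (Fin 2)

/-- `hUSD` in helper19's shape (strict distances). -/
theorem usd {D U : Set E2} (hD : IsCompact D) (hU : IsOpen U) (hDU : D ⊆ U) {V : E2 → E2}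
    (hV : ContDiffOn ℝ 1 V U) :
    ∀ η > 0, ∃ δ > 0, ∀ p₀ ∈ D, ∀ p q : E2, dist p p₀ < δ → dist q p₀ < δ →
      ‖V p - V q - fderiv ℝ V p₀ (p - q)‖ ≤ η * ‖p - q‖ := by
  intro η hη
  obtain ⟨δ, hδ, h⟩ := uniform_strict_linearisation hD hU hDU hV hη
  exact ⟨δ, hδ, fun p₀ hp₀ p q hp hq => (h p₀ hp₀ q p hq.le hp.le).2.2⟩

/-- points `δ`-close to `D` lie in `U` (for the `δ` of the linearisation). -/
theorem near_mem {D U : Set E2} (hD : IsCompact D) (hU : IsOpen U) (hDU : D ⊆ U) :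
    ∃ δ > 0, ∀ p₀ ∈ D, ∀ p : E2, dist p p₀ ≤ δ → p ∈ U := by
  obtain ⟨r₀, hr₀, h⟩ := exists_thickening_subset hD hU hDU
  exact ⟨r₀, hr₀, fun p₀ hp₀ p hp =>
    h (closedBall_subset_cthickening_of_mem hp₀ le_rfl (mem_closedBall.2 hp))⟩

/-- `hB`: the derivative is bounded on `D`. -/
theorem hB {D U : Set E2} (hD : IsCompact D) (hU : IsOpen U) (hDU : D ⊆ U) {V : E2 → E2}
    (hV : ContDiffOn ℝ 1 V U) : ∃ B : ℝ, ∀ p ∈ D, ‖fderiv ℝ V p‖ ≤ B := by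
  obtain ⟨B, -, h⟩ := fderiv_bounded hD hU hDU hV
  exact ⟨B, h⟩

/-- `hκ`: uniform margin for `1 + s² det DV`. -/
theorem hκ {D U : Set E2} (hD : IsCompact D) (hU : IsOpen U) (hDU : D ⊆ U) {V : E2 → E2}
    (hV : ContDiffOn ℝ 1 V U) {L : ℝ} (hL : 0 < L)
    (hdet : ∀ p ∈ D, -(L ^ 2)⁻¹ < LinearMap.det (fderiv ℝ V p).toLinearMap) :
    ∃ κ > 0, ∀ p ∈ D, ∀ s : ℝ, |s| ≤ L →
      κ ≤ 1 + s ^ 2 * LinearMap.det (fderiv ℝ V p).toLinearMap := by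
  obtain ⟨κ, hκ0, -, h⟩ := det_margin hD hU hDU hV hL hdet
  exact ⟨κ, hκ0, h⟩

/-- helper19's shape of the determinant bound: `−det DV ≤ d < 1/L²` with `0 ≤ d`. -/
theorem det_bound {D U : Set E2} (hD : IsCompact D) (hU : IsOpen U) (hDU : D ⊆ U) {V : E2 → E2}
    (hV : ContDiffOn ℝ 1 V U) {L : ℝ} (hL : 0 < L)
    (hdet : ∀ p ∈ D, -(L ^ 2)⁻¹ < LinearMap.det (fderiv ℝ V p).toLinearMap) :
    ∃ d : ℝ, d < (L ^ 2)⁻¹ ∧ 0 ≤ d ∧ ∀ p ∈ D, -LinearMap.det (fderiv ℝ V p).toLinearMap ≤ d := by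
  obtain ⟨κ, hκ0, hκ1, h⟩ := det_margin hD hU hDU hV hL hdet
  have hL2 : 0 < L ^ 2 := by positivity
  refine ⟨(1 - κ) / L ^ 2, ?_, div_nonneg (by linarith) hL2.le, fun p hp => ?_⟩
  · rw [div_lt_iff₀ hL2, inv_mul_cancel₀ hL2.ne']; linarith
  · have := h p hp L (by rw [abs_of_pos hL])
    rw [le_div_iff₀ hL2]
    nlinarith

/-- `hJ`: the cost density `J ∘ V` is uniformly continuous near `D`. -/
theorem hJ {D U : Set E2} (hD : IsCompact D) (hU : IsOpen U) (hDU : D ⊆ U) {V : E2 → E2}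
    (hV : ContDiffOn ℝ 1 V U) {h : ℝ} (hh : 0 < h) :
    ∀ θ' > 0, ∃ δ' > 0, ∀ p ∈ D, ∀ z : E2, dist z p ≤ δ' →
      |1 / Real.sqrt (1 + (V z 0) ^ 2 + h ^ 2 * (V z 1) ^ 2)
        - 1 / Real.sqrt (1 + (V p 0) ^ 2 + h ^ 2 * (V p 1) ^ 2)| ≤ θ' := by
  intro θ' hθ'
  obtain ⟨B, δ, hB0, hδ, hlip⟩ := lipschitz_near hD hU hDU hV
  have hc : 0 < (1 + h) * (B + 1) := by positivity
  refine ⟨min δ (θ' / ((1 + h) * (B + 1))), lt_min hδ (div_pos hθ' hc), fun p hp z hz => ?_⟩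
  have h1 : ‖V z - V p‖ ≤ B * ‖z - p‖ :=
    hlip p hp p z (by simp [hδ.le]) (hz.trans (min_le_left _ _))
  have h2 : ‖z - p‖ ≤ θ' / ((1 + h) * (B + 1)) := by
    rw [← dist_eq_norm]; exact hz.trans (min_le_right _ _)
  have h3 := Jf_sub_le hh (V z) (V p)
  unfold Jf at h3
  have h4 : B * ‖z - p‖ ≤ (B + 1) * (θ' / ((1 + h) * (B + 1))) := by
    have : 0 ≤ ‖z - p‖ := norm_nonneg _
    nlinarith
  calc _ ≤ (1 + h) * ‖V z - V p‖ := h3
    _ ≤ (1 + h) * ((B + 1) * (θ' / ((1 + h) * (B + 1)))) := by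
        apply mul_le_mul_of_nonneg_left (h1.trans h4) (by positivity)
    _ = θ' := by field_simp

/-- `hJD`: the cost density `J ∘ V` is continuous on `D`. -/
theorem hJD {D U : Set E2} (hDU : D ⊆ U) {V : E2 → E2} (hV : ContDiffOn ℝ 1 V U) (h : ℝ) :
    ContinuousOn (fun p : E2 => 1 / Real.sqrt (1 + (V p 0) ^ 2 + h ^ 2 * (V p 1) ^ 2)) D := by
  have hVc : ContinuousOn V D := hV.continuousOn.mono hDU
  have h0 : ContinuousOn (fun p : E2 => V p 0) D :=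
    (EuclideanSpace.proj (𝕜 := ℝ) (0 : Fin 2)).continuous.comp_continuousOn hVc
  have h1 : ContinuousOn (fun p : E2 => V p 1) D :=
    (EuclideanSpace.proj (𝕜 := ℝ) (1 : Fin 2)).continuous.comp_continuousOn hVc
  have hs : ContinuousOn (fun p : E2 => Real.sqrt (1 + (V p 0) ^ 2 + h ^ 2 * (V p 1) ^ 2)) D :=
    Real.continuous_sqrt.comp_continuousOn
      ((continuousOn_const.add (h0.pow 2)).add (continuousOn_const.mul (h1.pow 2)))
  refine continuousOn_const.div hs fun p _ => ?_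
  have : 0 < 1 + (V p 0) ^ 2 + h ^ 2 * (V p 1) ^ 2 := by positivity
  exact (Real.sqrt_pos.2 this).ne'

end Crest.Agent.Helper71
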